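import Mathlib
import Vale.Agent.P333.G.ClaimA
import Vale.Agent.P333.G.Base
import Vale.Agent.P333.H196.Word

set_option linter.all false

/-!
P333, ratio `2`: words of closed walks, positions of the visits and of blocks.
-/

namespace Vale.Agent.P333.H208

open Vale.Agent.P333 Vale.Agent.P333.U Vale.Agent.P333.G Vale.Agent.P333.H196

/-! ### Merges -/

theorem mergeL_drop_eq : ∀ (A : List (List ℕ)) (t : List ℕ) (B : List (List ℕ)),
    (mergeL (A ++ t :: B)).drop (linW (A ++ [t])) = mergeL (t :: B) := by
  intro A
  induction A with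
  | nil => intro t B; simp [linW]
  | cons x A ih =>
    intro t B
    have h := ih t B
    obtain ⟨y, r, hy⟩ : ∃ y r, A ++ t :: B = y :: r := by
      cases A with
      | nil => exact ⟨t, B, rfl⟩
      | cons y A => exact ⟨y, _, rfl⟩
    obtain ⟨r', hy'⟩ : ∃ r', A ++ [t] = y :: r' := by
      cases A with
      | nil => simp at hy; exact ⟨[], by simp [hy.1]⟩
      | cons y' A => simp at hy; exact ⟨A ++ [t], by simp [hy.1]⟩
    rw [List.cons_append, List.cons_append, hy, hy', mergeL, linW]
    rw [hy, hy'] at h
    have hl : (x.take (x.length - ov x y)).length = x.length - ov x y := by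
      rw [List.length_take]; omega
    rw [← List.drop_drop]
    have : ((x.take (x.length - ov x y) ++ mergeL (y :: r)).drop (x.length - ov x y)) =
        mergeL (y :: r) := by
      rw [List.drop_append_of_le_length (by omega), List.drop_of_length_le (by omega)]
      simp
    rw [this]
    exact h

theorem mergeL_prefix_append : ∀ (X Y : List (List ℕ)), X ≠ [] → mergeL X <+: mergeL (X ++ Y) := by
  intro X
  induction X with
  | nil => intro Y h; exact absurd rfl h
  | cons s r ih =>
    intro Y _
    cases r with
    | nil => simpa [mergeL] using head_prefix_mergeL s Y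
    | cons t r =>
      have h := ih Y (by simp)
      obtain ⟨v, hv⟩ := h
      refine ⟨v, ?_⟩
      simp only [List.cons_append, mergeL] at hv ⊢
      rw [← hv, List.append_assoc]

/-- The length of the merge of a prefix. -/
theorem length_mergeL_append_le (X Y : List (List ℕ)) (hX : X ≠ []) :
    (mergeL X).length ≤ (mergeL (X ++ Y)).length :=
  (mergeL_prefix_append X Y hX).length_le

theorem linW_append_le (X Y : List (List ℕ)) : linW X ≤ linW (X ++ Y) := by
  by_cases hX : X = []
  · simp [hX, linW]
  by_cases hY : Y = []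
  · simp [hY]
  rw [linW_append X Y hX hY]
  omega

theorem linW_le_cycW (c : List (List ℕ)) : linW c ≤ cycW c := by
  unfold cycW
  omega

/-- From one string to a later one the position increases. -/
theorem linW_pos {s t : List ℕ} {B : List (List ℕ)} (hs : s ≠ []) : 0 < linW (s :: B ++ [t]) := by
  cases B with
  | nil =>
    simp only [List.cons_append, List.nil_append, linW]
    have := ov_lt_left t hs
    omega
  | cons y B =>
    simp only [List.cons_append, linW]
    have := ov_lt_left y hs
    omega

theorem linW_split (A : List (List ℕ)) (t : List ℕ) (B : List (List ℕ)) :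
    linW (A ++ t :: B) = linW (A ++ [t]) + linW (t :: B) := by
  by_cases hA : A = []
  · subst hA
    simp [linW]
  · rw [linW_append A (t :: B) hA (by simp), linW_append A [t] hA (by simp)]
    simp only [List.headD_cons, linW]
    omega

/-- The position of a visit is less than the weight. -/
theorem pos_lt {A B : List (List ℕ)} {t : List ℕ} (hne : ∀ s ∈ A ++ t :: B, s ≠ []) :
    linW (A ++ [t]) < cycW (A ++ t :: B) := by
  have h1 := linW_split A t B
  have h2 : (A ++ t :: B).getLastD [] = (t :: B).getLastD [] := getLastD_append_ne _ _ (by simp)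
  have h3 : (t :: B).getLastD [] ∈ t :: B := by
    rw [List.getLastD_eq_getLast?, List.getLast?_eq_some_getLast (by simp)]
    exact List.getLast_mem _
  have h4 := ov_lt_left ((A ++ t :: B).headD []) (hne _ (List.mem_append_right A h3))
  unfold cycW cycO
  rw [h1, h2]
  omega

/-! ### Visits -/

/-- A visit gives an occurrence. -/
theorem occ_visit {A B : List (List ℕ)} {t : List ℕ} (hw : 0 < cycW (A ++ t :: B)) :
    OccAt (cycWord (A ++ t :: B)) t (linW (A ++ [t])) :=
  occ_of_drop hw (drop_mergeL A t B)

/-- A block gives an occurrence of its merge. -/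
theorem occ_block {A B C : List (List ℕ)} {t : List ℕ}
    (hw : 0 < cycW (A ++ t :: (B ++ C))) :
    OccAt (cycWord (A ++ t :: (B ++ C))) (mergeL (t :: B)) (linW (A ++ [t])) := by
  refine occ_of_drop hw ?_
  rw [mergeL_drop_eq]
  exact mergeL_prefix_append (t :: B) C (by simp)

/-! ### The two-sided word -/

/-- The two-sided periodic word of a closed walk. -/
def zW (c : List (List ℕ)) (i : ℤ) : ℕ := cycWord c (i % (cycW c : ℤ)).toNat

theorem zW_per (c : List (List ℕ)) (i : ℤ) : zW c (i + cycW c) = zW c i := by
  unfold zW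
  rw [Int.add_emod_right]

theorem zW_nat (c : List (List ℕ)) (k : ℕ) : zW c k = cycWord c k := by
  unfold zW
  have : ((k : ℤ) % (cycW c : ℤ)).toNat = k % cycW c := by
    rw [← Int.natCast_mod, Int.toNat_natCast]
  rw [this, cycWord_mod]

theorem occ_zW {c : List (List ℕ)} {s : List ℕ} {a : ℕ} (h : OccAt (cycWord c) s a) :
    Occ (zW c) s (a : ℤ) := by
  intro j hj
  rw [h j hj, ← zW_nat]
  congr 1

/-- The window of length `l` at `P`. -/
def zword (c : List (List ℕ)) (P : ℤ) (l : ℕ) : List ℕ :=
  (List.range l).map (fun i => zW c (P + (i : ℕ)))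

theorem length_zword (c : List (List ℕ)) (P : ℤ) (l : ℕ) : (zword c P l).length = l := by
  simp [zword]

theorem occAt_zword {c : List (List ℕ)} (hw : 0 < cycW c) (P : ℤ) (l : ℕ) :
    ∃ a, OccAt (cycWord c) (zword c P l) a := by
  have hN : (0 : ℤ) < cycW c := by exact_mod_cast hw
  obtain ⟨z, hz1, hz2⟩ := exists_shift hN 0 P
  refine ⟨(P + z * cycW c).toNat, fun i hi => ?_⟩
  rw [← zW_nat]
  simp only [zword, List.getElem_map, List.getElem_range]
  push_cast
  rw [Int.toNat_of_nonneg hz1]
  rw [show P + z * (cycW c : ℤ) + (i : ℤ) = (P + i) + z * cycW c by ring, per_mul (zW_per c)]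

theorem infix_zword {c : List (List ℕ)} {P r : ℤ} {l : ℕ} {s : List ℕ} (h : Occ (zW c) s r)
    (h1 : P ≤ r) (h2 : r + s.length ≤ P + l) : s <:+: zword c P l := by
  have e : s = ((zword c P l).drop (r - P).toNat).take s.length := by
    apply List.ext_getElem
    · rw [List.length_take, List.length_drop, length_zword]
      omega
    · intro i hi1 hi2
      rw [List.getElem_take, List.getElem_drop]
      simp only [zword, List.getElem_map, List.getElem_range]
      rw [← h i hi1]
      congr 1
      push_cast
      rw [Int.toNat_of_nonneg (by omega)]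
      ring
  rw [e]
  exact ((List.take_prefix _ _).isInfix).trans (List.drop_suffix _ _).isInfix

/-! ### Two visits -/

theorem exists_two {c : List (List ℕ)} {s : List ℕ} (h : 2 ≤ c.count s) :
    ∃ A B C, c = A ++ s :: (B ++ s :: C) := by
  have h1 : s ∈ c := List.count_pos_iff.1 (by omega)
  obtain ⟨A, B', hc, hA⟩ := List.eq_append_cons_of_mem h1
  have h2 : s ∈ B' := by
    apply List.count_pos_iff.1
    rw [hc, List.count_append, List.count_cons_self, List.count_eq_zero_of_not_mem hA] at h
    omega
  obtain ⟨B, C, hB⟩ := List.append_of_mem h2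
  exact ⟨A, B, C, by rw [hc, hB]⟩

/-- Two visits at different positions modulo the weight. -/
theorem two_visits {c : List (List ℕ)} {s : List ℕ} {A B C : List (List ℕ)}
    (hc : c = A ++ s :: (B ++ s :: C)) (hne : ∀ t ∈ c, t ≠ []) (hw : 0 < cycW c) :
    Occ (zW c) s (linW (A ++ [s]) : ℕ) ∧ Occ (zW c) s (linW (A ++ s :: B ++ [s]) : ℕ) ∧
      linW (A ++ [s]) < linW (A ++ s :: B ++ [s]) ∧ linW (A ++ s :: B ++ [s]) < cycW c := by
  have hs : s ≠ [] := hne s (by rw [hc]; simp)
  have e2 : c = (A ++ s :: B) ++ s :: C := by rw [hc]; simp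
  refine ⟨occ_zW ?_, occ_zW ?_, ?_, ?_⟩
  · have := occ_visit (A := A) (B := B ++ s :: C) (t := s) (by rw [← hc]; exact hw)
    rw [← hc] at this
    exact this
  · have := occ_visit (A := A ++ s :: B) (B := C) (t := s) (by rw [← e2]; exact hw)
    rw [← e2] at this
    exact this
  · have h1 := linW_split A s (B ++ [s])
    have h2 := linW_pos (s := s) (t := s) (B := B) hs
    have e3 : A ++ s :: B ++ [s] = A ++ s :: (B ++ [s]) := by simp
    rw [e3, h1]
    simp only [List.cons_append] at h2
    omega
  · have := pos_lt (A := A ++ s :: B) (B := C) (t := s) (by rw [← e2]; exact hne)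
    rw [← e2] at this
    exact this

theorem not_dvd_of_lt {a b N : ℕ} (h1 : a < b) (h2 : b < N) : ¬ (N : ℤ) ∣ ((b : ℤ) - a) := by
  intro h
  have := Int.le_of_dvd (by omega) h
  omega

end Vale.Agent.P333.H208
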