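import Mathlib
import Vale.Agent.P333.H208.Walk

set_option linter.all false

/-!
P333, ratio `2`: the least period of the word of a closed walk.
-/

namespace Vale.Agent.P333.H208

open Vale.Agent.P333 Vale.Agent.P333.U Vale.Agent.P333.G Vale.Agent.P333.H196

theorem least_period_exists {W : ℤ → ℕ} {N : ℤ} (hN : 0 < N) (per : ∀ i, W (i + N) = W i) :
    ∃ p : ℤ, 0 < p ∧ p ≤ N ∧ (∀ i, W (i + p) = W i) ∧
      (∀ q, 0 < q → q < p → ∃ i, W (i + q) ≠ W i) ∧ p ∣ N := by
  classical
  have hex : ∃ n : ℕ, 0 < n ∧ ∀ i, W (i + n) = W i :=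
    ⟨N.toNat, by omega, fun i => by rw [Int.toNat_of_nonneg hN.le]; exact per i⟩
  obtain ⟨h0, h1⟩ := Nat.find_spec hex
  set p := Nat.find hex with hp
  have hmin : ∀ q : ℤ, 0 < q → q < p → ∃ i, W (i + q) ≠ W i := by
    intro q hq0 hq
    by_contra hcon
    push Not at hcon
    have := Nat.find_min hex (m := q.toNat) (by omega)
    exact this ⟨by omega, fun i => by rw [Int.toNat_of_nonneg hq0.le]; exact hcon i⟩
  refine ⟨p, by exact_mod_cast h0, ?_, h1, hmin, ?_⟩
  · by_contra hcon
    push Not at hcon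
    obtain ⟨i, hi⟩ := hmin N hN hcon
    exact hi (per i)
  · by_contra hcon
    have hp0 : (0 : ℤ) < p := by exact_mod_cast h0
    have h2 := Int.emod_nonneg N hp0.ne'
    have h3 := Int.emod_lt_of_pos N hp0
    have h4 : N % p ≠ 0 := fun h => hcon (Int.dvd_of_emod_eq_zero h)
    obtain ⟨i, hi⟩ := hmin (N % p) (by omega) h3
    apply hi
    have h5 := Int.emod_add_mul_ediv N p
    have h6 := per_mul h1 (-(N / p)) (i + N)
    rw [per] at h6
    rw [← h6]
    congr 1
    linarith

/-- The word of a closed walk has a proper period, or its weight is its least period. -/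
theorem prim_or (c : List (List ℕ)) (hw : 0 < cycW c) :
    (∀ m : ℤ, 0 < m → m < cycW c → ∃ i, zW c (i + m) ≠ zW c i) ∨
      ∃ p : ℕ, 0 < p ∧ 2 * p ≤ cycW c ∧ (∀ k, cycWord c (k + p) = cycWord c k) ∧
        ∀ q, 0 < q → q < p → ¬ ∀ k, cycWord c (k + q) = cycWord c k := by
  have hN : (0 : ℤ) < cycW c := by exact_mod_cast hw
  obtain ⟨p, h1, h2, h3, h4, h5⟩ := least_period_exists hN (zW_per c)
  rcases eq_or_lt_of_le h2 with h | h
  · left
    rw [← h]
    exact h4
  · right
    have hpn : ((p.toNat : ℕ) : ℤ) = p := Int.toNat_of_nonneg h1.le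
    refine ⟨p.toNat, by omega, ?_, fun k => ?_, fun q hq0 hq hper => ?_⟩
    · obtain ⟨k, hk⟩ := h5
      have hk2 : 2 ≤ k := by
        by_contra hcon
        have hk1 : k ≤ 1 := by omega
        nlinarith
      have : 2 * p ≤ cycW c := by rw [hk]; nlinarith
      omega
    · rw [← zW_nat, ← zW_nat, ← h3 (k : ℤ)]
      congr 1
      push_cast
      rw [hpn]
    · obtain ⟨i, hi⟩ := h4 q (by exact_mod_cast hq0) (by omega)
      obtain ⟨z, hz1, hz2⟩ := exists_shift hN 0 i
      apply hi
      have h6 := hper (i + z * cycW c).toNat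
      rw [← zW_nat, ← zW_nat] at h6
      push_cast at h6
      rw [Int.toNat_of_nonneg hz1] at h6
      rw [show i + z * (cycW c : ℤ) + (q : ℤ) = (i + q) + z * cycW c by ring,
        per_mul (zW_per c), per_mul (zW_per c)] at h6
      exact h6

theorem sum_le_of_nodup {J : List (List (List ℕ))} :
    ∀ {l : List (List (List ℕ))}, l.Nodup → (∀ x ∈ l, x ∈ J) → (l.map cycW).sum ≤ (J.map cycW).sum := by
  intro l hl hsub
  obtain ⟨l', hl', hsl⟩ := hl.subperm (l₂ := J) hsub
  rw [← (hl'.map cycW).sum_eq]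
  exact (hsl.map cycW).sum_le_sum (by simp)

end Vale.Agent.P333.H208
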