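import Mathlib
import Vale.Agent.P333.Y.Parts
import Vale.Agent.P333.H120.Walk
import Vale.Agent.P333.H196.Circ
import Vale.Agent.P333.H208.Comp
import Vale.Agent.P333.X.Closed

set_option linter.all false

/-!
P333, ratio `2`: B4c, B4d (components with at least two circles).
-/

namespace Vale.Agent.P333.Y

open Vale.Agent.P333 Vale.Agent.P333.U Vale.Agent.P333.E Vale.Agent.P333.G

/-! ### The output of a closed walk -/

theorem spre_le {c : Cir} {w u : List ℕ} (h : u <+: w) (hu : ∀ s ∈ c, s <:+: u) :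
    (spre c w).length ≤ u.length := by
  unfold spre
  refine AccB.find_len (x := u) ?_ ?_ ?_ _
  · rw [List.pairwise_map]
    refine List.Pairwise.imp ?_ List.pairwise_lt_range
    intro i j hij
    rw [List.length_take, List.length_take]
    omega
  · rw [List.mem_map]
    refine ⟨u.length, ?_, (List.prefix_iff_eq_take.1 h).symm⟩
    rw [List.mem_range]
    have := h.length_le
    omega
  · rw [List.all_eq_true]
    intro s hs
    rw [infB_iff]
    exact hu s hs

/-- The output is not longer than any window of at most two laps which contains all strings. -/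
theorem outW_le {L : List Cir} {c : Cir} {U : List ℕ} {a : ℕ} (hw : 0 < cycW c)
    (hU : OccAt (cycWord c) U a) (hall : ∀ s ∈ c, s <:+: U) (hl : U.length ≤ 2 * cycW c) :
    (outW L c).length ≤ U.length := by
  have hp : a % cycW c < cycW c := Nat.mod_lt _ hw
  have hpre : U <+: (laps c).drop (a % cycW c) := by
    have hlen := AccB.length_pw c 4
    have hlaps : laps c = pw c 4 := rfl
    rw [hlaps, List.prefix_iff_eq_take]
    apply List.ext_getElem
    · simp only [List.length_take, List.length_drop]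
      omega
    · intro i h1 h2
      rw [List.getElem_take, List.getElem_drop, hU i h1, ← List.getD_eq_getElem _ 0,
        AccB.pw_get c hw 4 _ (by omega)]
      conv_lhs => rw [← Nat.mod_add_div a (cycW c)]
      rw [Nat.add_right_comm, Nat.mul_comm, cycWord_add_mul]
  refine ((AccB.foldl_len (cnds L c) (mergeL c)).2 (spre c ((laps c).drop (a % cycW c))) ?_).trans
    (spre_le hpre hall)
  unfold cnds
  exact List.mem_append_left _ (List.mem_map.2 ⟨a % cycW c, List.mem_range.2 hp, rfl⟩)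

/-! ### The circles of a component -/

/-- The circles of a component. -/
def cirs (L : List Cir) (c : Cir) : List Cir := L.filter (fun C => C.any (fun s => decide (s ∈ c)))

theorem mem_cirs {L : List Cir} {c C : Cir} : C ∈ cirs L c ↔ C ∈ L ∧ ∃ s ∈ C, s ∈ c := by
  unfold cirs
  rw [List.mem_filter, List.any_eq_true]
  simp

theorem nodup_cover {S : List (List ℕ)} {L : List Cir} (hS : Sfree S) (hL : MinCover S L) :
    L.Nodup := by
  have h : L.flatten.Nodup := by
    rw [hL.perm.nodup_iff]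
    refine hS.2.imp ?_
    rintro a b ⟨h1, -⟩ rfl
    exact h1 List.infix_rfl
  have h2 := (List.nodup_flatten.1 h).2
  refine List.Pairwise.imp_of_mem ?_ h2
  rintro a b ha hb hd rfl
  obtain ⟨s, r, hsr⟩ := List.exists_cons_of_ne_nil (hL.ne a ha)
  exact hd (a := s) (by rw [hsr]; simp) (by rw [hsr]; simp)

theorem eq_of_mem {S : List (List ℕ)} {L : List Cir} (hS : Sfree S) (hL : MinCover S L)
    {C D : Cir} (hC : C ∈ L) (hD : D ∈ L) {s : List ℕ} (h1 : s ∈ C) (h2 : s ∈ D) : C = D := by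
  have h : L.flatten.Nodup := by
    rw [hL.perm.nodup_iff]
    refine hS.2.imp ?_
    rintro a b ⟨h1, -⟩ rfl
    exact h1 List.infix_rfl
  by_contra hne
  haveI : Std.Symm (fun a b : Cir => List.Disjoint a b) := ⟨fun a b h => h.symm⟩
  have h3 := (List.nodup_flatten.1 h).2.forall hC hD hne
  exact h3 h1 h2

theorem mem_iff_cirs {S : List (List ℕ)} {L F : List Cir} {c : Cir} {K : List Rcd}
    (hc : Comp L F c K) (s : List ℕ) : s ∈ c ↔ s ∈ (cirs L c).flatten := by
  constructor
  · intro hs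
    obtain ⟨C, hC, hsC⟩ := List.mem_flatten.1 (hc.sub s hs)
    exact List.mem_flatten.2 ⟨C, mem_cirs.2 ⟨hC, s, hsC, hs⟩, hsC⟩
  · intro hs
    obtain ⟨C, hC, hsC⟩ := List.mem_flatten.1 hs
    obtain ⟨hC1, t, ht1, ht2⟩ := mem_cirs.1 hC
    exact hc.cl C hC1 t ht1 ht2 s hsC

section

variable {S : List (List ℕ)} {L F : List Cir} {c : Cir} {K : List Rcd}

theorem comp_ne (hS : Sfree S) (hL : MinCover S L) (hc : Comp L F c K) : ∀ s ∈ c, s ≠ [] :=
  fun s hs => hS.1 s (hL.perm.mem_iff.1 (hc.sub s hs))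

theorem comp_pos (hS : Sfree S) (hL : MinCover S L) (hc : Comp L F c K) : 0 < cycW c :=
  cycW_pos hc.ne (comp_ne hS hL hc)

theorem comp_occ (hS : Sfree S) (hL : MinCover S L) (hc : Comp L F c K) :
    ∀ C ∈ cirs L c, ∀ s ∈ C, ∃ a, OccAt (cycWord c) s a := by
  intro C hC s hs
  exact occurs (comp_pos hS hL hc) ((mem_iff_cirs (S := S) hc s).2 (List.mem_flatten.2 ⟨C, hC, hs⟩))

theorem two_cirs (h2 : ∃ C ∈ L, ∃ D ∈ L, C ≠ D ∧ (∃ s ∈ C, s ∈ c) ∧ ∃ s ∈ D, s ∈ c) :
    ∃ C ∈ cirs L c, ∃ D ∈ cirs L c, C ≠ D := by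
  obtain ⟨C, hC, D, hD, hne, h3, h4⟩ := h2
  exact ⟨C, mem_cirs.2 ⟨hC, h3⟩, D, mem_cirs.2 ⟨hD, h4⟩, hne⟩

end

/-- B4c. -/
theorem partB4c : PartB4c := by
  intro S L F c K hS hL hF hc h2 hq
  obtain ⟨q, hq0, hq1, hq2⟩ := hq
  have hw := comp_pos hS hL hc
  have hocc := comp_occ hS hL hc
  have htwo := two_cirs h2
  rcases H208.prim_or c hw with hp | ⟨p, hp0, hp2, hper, -⟩
  · exfalso
    obtain ⟨i, hi⟩ := hp q (by exact_mod_cast hq0) (by exact_mod_cast hq1)
    have hN : (0 : ℤ) < cycW c := by exact_mod_cast hw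
    obtain ⟨z, hz1, hz2⟩ := H196.exists_shift hN 0 i
    apply hi
    have h6 := hq2 (i + z * cycW c).toNat
    rw [← H208.zW_nat, ← H208.zW_nat] at h6
    push_cast at h6
    rw [Int.toNat_of_nonneg hz1] at h6
    rw [show i + z * (cycW c : ℤ) + (q : ℤ) = (i + q) + z * cycW c by ring,
      H196.per_mul (H208.zW_per c), H196.per_mul (H208.zW_per c)] at h6
    exact h6
  · obtain ⟨q', hq', hwin⟩ := H196.window_two hS hL (fun C hC => (mem_cirs.1 hC).1) htwo hp0 hper hocc
    have hU : OccAt (cycWord c) ((List.range (2 * p)).map (fun i => cycWord c (q' + i))) q' := by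
      intro i hi
      simp
    have hlen : ((List.range (2 * p)).map (fun i => cycWord c (q' + i))).length = 2 * p := by
      rw [List.length_map, List.length_range]
    have := outW_le (L := L) hw hU (by
      intro s hs
      obtain ⟨C, hC, hsC⟩ := List.mem_flatten.1 ((mem_iff_cirs (S := S) hc s).1 hs)
      obtain ⟨b, hb1, hb2, hb3⟩ := hwin C hC s hsC
      exact G.infix_of_occ hU hb3 hb1 (by rw [hlen]; exact hb2)) (by omega)
    omega

/-! ### Traversals -/

theorem mem_cprs_cases {c : Cir} {e : List ℕ × List ℕ} (he : e ∈ cprs [] c) :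
    (∃ a b, c = a ++ e.1 :: e.2 :: b) ∨ (c.getLastD [] = e.1 ∧ c.headD [] = e.2) := by
  rcases G.mem_prsC [] _ he with h | ⟨h1, h2⟩
  · exact Or.inl h
  · exact Or.inr ⟨h1, h2.symm⟩

theorem idxOf_append_cons {a b : Cir} {x : List ℕ} (h : (a ++ x :: b).Nodup) :
    (a ++ x :: b).idxOf x = a.length := by
  have hx : x ∉ a := by
    intro hx
    have := List.nodup_append.1 h
    exact this.2.2 x hx x (by simp) rfl
  rw [List.idxOf_append_of_notMem hx, List.idxOf_cons_self, Nat.add_zero]

theorem exit_data {D : Cir} (hD : D.Nodup) (hne : D ≠ []) {e : List ℕ × List ℕ}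
    (he : e ∈ cprs [] D) :
    (D.idxOf e.1 + 1) % D.length < D.length ∧
      (D ++ D.take ((D.idxOf e.1 + 1) % D.length)).getLastD [] = e.1 ∧
      D.getD ((D.idxOf e.1 + 1) % D.length) [] = e.2 := by
  have hpos := List.length_pos_of_ne_nil hne
  refine ⟨Nat.mod_lt _ hpos, ?_⟩
  rcases mem_cprs_cases he with ⟨a, b, h⟩ | ⟨h1, h2⟩
  · have hi : D.idxOf e.1 = a.length := by
      rw [h] at hD ⊢
      exact idxOf_append_cons hD
    have hl : D.length = a.length + (b.length + 2) := by rw [h]; simp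
    have hm : (D.idxOf e.1 + 1) % D.length = a.length + 1 := by
      rw [hi, Nat.mod_eq_of_lt (by omega)]
    rw [hm]
    have ht : D.take (a.length + 1) = a ++ [e.1] := by
      rw [h]
      have : a ++ e.1 :: e.2 :: b = (a ++ [e.1]) ++ (e.2 :: b) := by simp
      rw [this, List.take_append_of_le_length (by simp), List.take_of_length_le (by simp)]
    constructor
    · rw [ht, ← List.append_assoc]
      simp
    · rw [h]
      have : a ++ e.1 :: e.2 :: b = (a ++ [e.1]) ++ (e.2 :: b) := by simp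
      rw [this, List.getD_append_right _ _ _ _ (by simp)]
      simp
  · obtain ⟨a, x, hax⟩ : ∃ a x, D = a ++ [x] := by
      rcases List.eq_nil_or_concat D with h | ⟨a, x, h⟩
      · exact absurd h hne
      · exact ⟨a, x, by simpa using h⟩
    have hx : x = e.1 := by
      rw [← h1, hax]; simp
    subst hx
    have hi : D.idxOf e.1 = a.length := by
      rw [hax] at hD ⊢
      exact idxOf_append_cons hD
    have hl : D.length = a.length + 1 := by rw [hax]; simp
    have hm : (D.idxOf e.1 + 1) % D.length = 0 := by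
      rw [hi, hl, Nat.mod_self]
    rw [hm]
    constructor
    · rw [List.take_zero, List.append_nil]
      exact h1
    · rw [← h2]
      cases hDc : D with
      | nil => exact absurd hDc hne
      | cons y r => simp

theorem entry_data {D : Cir} (hD : D.Nodup) (hne : D ≠ []) {e : List ℕ × List ℕ}
    (he : e ∈ cprs [] D) (hh : D.headD [] = e.2) : D.getLastD [] = e.1 := by
  rcases mem_cprs_cases he with ⟨a, b, h⟩ | ⟨h1, h2⟩
  · exfalso
    rw [h] at hD hh
    cases a with
    | nil =>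
      simp only [List.nil_append, List.headD_cons] at hh
      rw [List.nil_append, List.nodup_cons] at hD
      exact hD.1 (by rw [hh]; simp)
    | cons y a =>
      simp only [List.cons_append, List.headD_cons] at hh
      rw [List.cons_append, List.nodup_cons] at hD
      exact hD.1 (by rw [hh]; simp)
  · exact h1

/-- The slack of a record. -/
theorem rslk_eq {D : Cir} (hD : D.Nodup) (hne : D ≠ []) (hnes : ∀ s ∈ D, s ≠ [])
    {e1 e2 : List ℕ × List ℕ} (he1 : e1 ∈ cprs [] D) (he2 : e2 ∈ cprs [] D) :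
    rslk (D, e1, e2) + (H120.st (D.rotate (D.idxOf e2.2))
        (((D.rotate (D.idxOf e2.2)).idxOf e1.1 + 1) % D.length) +
      ((mergeL (trav D e2.2 e1.1)).length - (mergeL (D.rotate (D.idxOf e2.2))).length)) =
      2 * cycW D := by
  have hmem2 : e2.2 ∈ D := by
    rcases mem_cprs_cases he2 with ⟨a, b, h⟩ | ⟨h1, h2⟩
    · rw [h]; simp
    · rw [← h2]
      cases hDc : D with
      | nil => exact absurd hDc hne
      | cons y r => simp
  obtain ⟨D', hD'⟩ : ∃ D', D' = D.rotate (D.idxOf e2.2) := ⟨_, rfl⟩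
  have hhd : D'.headD [] = e2.2 := by rw [hD']; exact X.headD_rotate_idxOf hmem2
  have hne' : D' ≠ [] := by rw [hD']; exact fun h => hne (List.rotate_eq_nil_iff.1 h)
  have hnd' : D'.Nodup := by rw [hD']; exact List.nodup_rotate.2 hD
  have hnes' : ∀ s ∈ D', s ≠ [] := by
    intro s hs
    rw [hD'] at hs
    exact hnes s (List.mem_rotate.1 hs)
  have hlen : D.length = D'.length := by rw [hD', List.length_rotate]
  have hcyc : cycW D' = cycW D := by rw [hD']; exact cycW_rotate _ _
  have he1' : e1 ∈ cprs [] D' := by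
    rw [hD']
    exact (X.RegC.cprs_rotate [] D _).mem_iff.2 he1
  have he2' : e2 ∈ cprs [] D' := by
    rw [hD']
    exact (X.RegC.cprs_rotate [] D _).mem_iff.2 he2
  have htr : trav D e2.2 e1.1 = D' ++ D'.take ((D'.idxOf e1.1 + 1) % D.length) := by
    unfold trav
    rw [← hD']
  obtain ⟨x1, x2, x3⟩ := exit_data hnd' hne' he1'
  have hlast := entry_data hnd' hne' he2' hhd
  rw [← hlen] at x1 x2 x3
  rw [← hD']
  set ρ := (D'.idxOf e1.1 + 1) % D.length with hρ
  have hρ' : ρ < D'.length := by rw [← hlen]; exact x1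
  have l1 := H120.length_trav_exit hne' hρ'
  have l2 := H120.length_trav_entry hne' ρ
  have l3 := H120.exit_lt hnes' hρ'
  have l4 := H120.entry_lt hne' hnes' hρ'
  rw [x2, x3] at l1
  have hO : cycO D' = ov e2.1 e2.2 := by
    unfold cycO
    rw [hlast, hhd]
  rw [hO] at l2
  unfold rslk
  rw [htr]
  simp only at *
  omega

/-- One record for every circle. -/
theorem exists_nodup_rcd : ∀ K : List Rcd, ∃ K' : List Rcd, K'.Sublist K ∧
    (K'.map Prod.fst).Nodup ∧ ∀ r ∈ K, ∃ r' ∈ K', r'.1 = r.1 := by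
  intro K
  induction K with
  | nil => exact ⟨[], List.Sublist.refl _, by simp, by simp⟩
  | cons r K ih =>
    obtain ⟨K', h1, h2, h3⟩ := ih
    by_cases h : ∃ r' ∈ K', r'.1 = r.1
    · refine ⟨K', h1.cons r, h2, fun x hx => ?_⟩
      rcases List.mem_cons.1 hx with rfl | hx
      · exact h
      · exact h3 x hx
    · refine ⟨r :: K', h1.cons_cons r, ?_, fun x hx => ?_⟩
      · rw [List.map_cons, List.nodup_cons]
        refine ⟨fun hm => h ?_, h2⟩
        obtain ⟨r', hr', he⟩ := List.mem_map.1 hm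
        exact ⟨r', hr', he⟩
      · rcases List.mem_cons.1 hx with rfl | hx
        · exact ⟨x, by simp, rfl⟩
        · obtain ⟨r', hr', he⟩ := h3 x hx
          exact ⟨r', List.mem_cons_of_mem _ hr', he⟩

/-- B4d. -/
theorem partB4d : PartB4d := by
  intro S L F c K hS hL hF hc h2 hprim
  have hw := comp_pos hS hL hc
  have hocc := comp_occ hS hL hc
  have htwo := two_cirs h2
  obtain ⟨K', k1, k2, k3⟩ := exists_nodup_rcd K
  have hKmem : ∀ r ∈ K', r ∈ K := fun r hr => k1.subset hr
  -- the data of a record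
  have hrec : ∀ r ∈ K', r.1 ∈ L ∧ r.1.Nodup ∧ r.1 ≠ [] ∧ (∀ s ∈ r.1, s ≠ []) ∧
      r.1 ∈ cirs L c := by
    intro r hr
    have h1 := hc.rcd r (hKmem r hr)
    have hL1 := hF.sub _ h1.1
    refine ⟨hL1, H196.nodup_of_mem hS hL hL1, hL.ne _ hL1, fun s hs =>
      hS.1 s (hL.perm.mem_iff.1 (List.mem_flatten.2 ⟨_, hL1, hs⟩)), ?_⟩
    obtain ⟨k, hk⟩ := h1.2.2.2
    refine mem_cirs.2 ⟨hL1, ?_⟩
    obtain ⟨s, t, hst⟩ := List.exists_cons_of_ne_nil (hL.ne _ hL1)
    have hs : s ∈ r.1 := by rw [hst]; simp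
    refine ⟨s, hs, ?_⟩
    have h3 : s ∈ trav r.1 r.2.2.2 r.2.1.1 := by
      unfold trav
      exact List.mem_append_left _ (List.mem_rotate.2 hs)
    exact List.mem_rotate.1 (hk.subset h3)
  have hlt : ∀ r ∈ K', cycW r.1 < cycW c := by
    intro r hr
    obtain ⟨hL1, -, -, -, hJ⟩ := hrec r hr
    obtain ⟨C', hC', hne⟩ : ∃ C' ∈ cirs L c, C' ≠ r.1 := by
      obtain ⟨C1, hC1, C2, hC2, hne⟩ := htwo
      by_cases h : C1 = r.1
      · exact ⟨C2, hC2, by rw [← h]; exact hne.symm⟩
      · exact ⟨C1, hC1, h⟩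
    have hC'L := (mem_cirs.1 hC').1
    have h7 := H196.two_le_period hS hL hC'L hL1 hne hw (cycWord_add c)
      (fun s hs => hocc _ hC' s hs) (fun s hs => hocc _ hJ s hs)
    have h8 : 0 < cycW C' := cycW_pos (hL.ne _ hC'L) (fun s hs =>
      hS.1 s (hL.perm.mem_iff.1 (List.mem_flatten.2 ⟨_, hC'L, hs⟩)))
    omega
  let g : Rcd → List (List ℕ) × ℕ := fun r => (r.1.rotate (r.1.idxOf r.2.2.2),
    ((r.1.rotate (r.1.idxOf r.2.2.2)).idxOf r.2.1.1 + 1) % r.1.length)
  have htr : ∀ r : Rcd, trav r.1 r.2.2.2 r.2.1.1 = (g r).1 ++ (g r).1.take (g r).2 := fun r => rfl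
  have hprim' : ∀ q, 0 < q → q < cycW c → ¬ ∀ k, cycWord c (k + q) = cycWord c k :=
    fun q hq0 hq1 hq2 => hprim ⟨q, hq0, hq1, hq2⟩
  obtain ⟨U, ⟨a, hU⟩, hUs, hUl⟩ := H120.walk_window hc.ne (comp_ne hS hL hc) hprim' (K'.map g) (by
    intro e he
    obtain ⟨r, hr, rfl⟩ := List.mem_map.1 he
    refine ⟨?_, ?_, ?_⟩
    · show ((r.1.rotate (r.1.idxOf r.2.2.2)).idxOf r.2.1.1 + 1) % r.1.length <
        (r.1.rotate (r.1.idxOf r.2.2.2)).length
      rw [List.length_rotate]
      exact Nat.mod_lt _ (List.length_pos_of_ne_nil (hrec r hr).2.2.1)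
    · show cycW (r.1.rotate (r.1.idxOf r.2.2.2)) < cycW c
      rw [cycW_rotate]
      exact hlt r hr
    · rw [← htr]
      exact (hc.rcd r (hKmem r hr)).2.2.2) (by
    intro s hs
    obtain ⟨C, hC, hsC⟩ := List.mem_flatten.1 (hc.sub s hs)
    by_cases hCF : C ∈ F
    · left
      obtain ⟨r, hr, hrC⟩ := hc.all C hCF s hsC hs
      obtain ⟨r', hr', hrr⟩ := k3 r hr
      refine ⟨g r', List.mem_map_of_mem hr', ?_⟩
      show s ∈ r'.1.rotate _
      rw [List.mem_rotate, hrr, hrC]
      exact hsC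
    · right
      exact hc.twice C hC hCF s hsC hs)
  -- sums
  have hterm : ∀ r ∈ K', rslk r + (H120.st (g r).1 (g r).2 +
      ((mergeL ((g r).1 ++ (g r).1.take (g r).2)).length - (mergeL (g r).1).length)) =
      2 * cycW r.1 := by
    intro r hr
    obtain ⟨-, h3, h4, h5, -⟩ := hrec r hr
    have h1 := hc.rcd r (hKmem r hr)
    exact rslk_eq h3 h4 h5 h1.2.1 h1.2.2.1
  have hs1 : (K'.map rslk).sum + ((K'.map g).map fun e => H120.st e.1 e.2 +
      ((mergeL (e.1 ++ e.1.take e.2)).length - (mergeL e.1).length)).sum =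
      (K'.map (fun r => 2 * cycW r.1)).sum := by
    rw [List.map_map, ← List.sum_map_add]
    congr 1
    refine List.map_congr_left fun r hr => ?_
    exact hterm r hr
  have hs2 : ((K'.map g).map fun e => 2 * cycW e.1).sum = (K'.map (fun r => 2 * cycW r.1)).sum := by
    rw [List.map_map]
    congr 1
    refine List.map_congr_left fun r hr => ?_
    show 2 * cycW (r.1.rotate _) = _
    rw [cycW_rotate]
  have hs3 : (K'.map rslk).sum ≤ (K.map rslk).sum := (k1.map rslk).sum_le_sum (by simp)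
  have hs4 : (K'.map (fun r => 2 * cycW r.1)).sum ≤ 2 * cycW c := by
    have h3 : (K'.map (fun r => 2 * cycW r.1)).sum = 2 * ((K'.map Prod.fst).map cycW).sum := by
      rw [List.sum_map_mul_left, List.map_map]
      rfl
    have h4 : ((K'.map Prod.fst).map cycW).sum ≤ ((cirs L c).map cycW).sum := by
      refine H208.sum_le_of_nodup k2 fun x hx => ?_
      obtain ⟨r, hr, rfl⟩ := List.mem_map.1 hx
      exact (hrec r hr).2.2.2.2
    have h5 := H196.sum_le_period hS hL ((nodup_cover hS hL).filter _)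
      (fun C hC => (mem_cirs.1 hC).1) hw (cycWord_add c) hocc
    have h6 := h4.trans h5
    rw [h3]
    exact Nat.mul_le_mul_left 2 h6
  rw [hs2] at hUl
  have hlen2 : U.length ≤ 2 * cycW c := by omega
  have := outW_le (L := L) hw hU hUs hlen2
  omega

end Vale.Agent.P333.Y
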